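import Mathlib
import Vale.Agent.Lib.P317.Exchange
import Vale.Agent.Lib.P317.MonteCarlo

namespace Vale.Agent.Results.P317.GirthMonteCarlo

open Vale.Agent.Lib.P317

/-- counting `r`-subsets (as finsets) with a property is the same as counting sets of size `r`. -/
lemma card_subtype_eq {α : Type*} [Fintype α] (r : ℕ) (P : Set α → Prop) :
    Nat.card {s : {X : Finset α // X.card = r} // P (s.1 : Set α)} =
      {B : Set α | B.ncard = r ∧ P B}.ncard := by
  classical
  rw [← Nat.card_coe_set_eq]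
  refine Nat.card_congr (Equiv.ofBijective
    (fun s => ⟨(s.1.1 : Set α), by
      refine ⟨?_, s.2⟩
      rw [Set.ncard_coe_finset]; exact s.1.2⟩) ⟨?_, ?_⟩)
  · intro s t h
    have h1 : (s.1.1 : Set α) = (t.1.1 : Set α) := congrArg Subtype.val h
    exact Subtype.ext (Subtype.ext (Finset.coe_injective h1))
  · rintro ⟨B, hB, hP⟩
    refine ⟨⟨⟨B.toFinset, ?_⟩, ?_⟩, ?_⟩
    · rw [← hB, Set.ncard_eq_toFinset_card']
    · simpa using hP
    · simp

/-- **Naive Monte Carlo is an FPRAS for pairs of matroids of large girth.**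
Let `M₁`, `M₂` be matroids of rank `r` on a ground set with `n` elements such that every circuit of
either matroid has more than `r - c` elements (`c = 1`: both are paving).  Draw `m` independent
uniformly random `r`-subsets `ω 0, …, ω (m-1)`, ask both independence oracles about each of them,
and output `binom n r * (number of samples independent in both) / m`.  If
`m ≥ (r (n - r) + 1) ^ (2 c (c + 1)) * log (2 / δ) / (2 ε ^ 2)`, then for at least a `1 - δ`
fraction of all sample sequences the output is within `ε N` of the number `N` of common bases. -/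
theorem result {α : Type*} [Fintype α] (M₁ M₂ : Matroid α) (r c : ℕ)
    (hE₁ : M₁.E = Set.univ) (hE₂ : M₂.E = Set.univ)
    (hr₁ : M₁.eRank = r) (hr₂ : M₂.eRank = r)
    (hg₁ : ∀ C, M₁.IsCircuit C → r < C.ncard + c)
    (hg₂ : ∀ C, M₂.IsCircuit C → r < C.ncard + c)
    (ε δ : ℝ) (hε : 0 < ε) (hδ : 0 < δ) (hδ1 : δ < 1) (m : ℕ)
    (hm : ((r * (Fintype.card α - r) + 1 : ℕ) : ℝ) ^ (2 * c * (c + 1)) * Real.log (2 / δ)
      / (2 * ε ^ 2) ≤ m) :
    (1 - δ) * (Nat.card (Fin m → {X : Finset α // X.card = r}) : ℝ) ≤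
      Nat.card {ω : Fin m → {X : Finset α // X.card = r} //
        |((Fintype.card α).choose r : ℝ) *
            (Nat.card {i : Fin m // M₁.Indep (ω i : Set α) ∧ M₂.Indep (ω i : Set α)}) / m
          - ({B | M₁.IsBase B ∧ M₂.IsBase B}.ncard : ℝ)| ≤
        ε * ({B | M₁.IsBase B ∧ M₂.IsBase B}.ncard : ℝ)} := by
  classical
  obtain ⟨B₁, hB₁⟩ := M₁.exists_isBase
  obtain ⟨B₂, hB₂⟩ := M₂.exists_isBase
  have hn₁ : B₁.ncard = r := by
    have h := hB₁.encard_eq_eRank
    rw [hr₁] at h
    rw [Set.ncard_def, h]; rfl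
  have hn₂ : B₂.ncard = r := by
    have h := hB₂.encard_eq_eRank
    rw [hr₂] at h
    rw [Set.ncard_def, h]; rfl
  set S := {X : Finset α // X.card = r} with hS
  have hcardS : Fintype.card S = (Fintype.card α).choose r := Fintype.card_finset_len r
  have hne : Nonempty S := ⟨⟨B₁.toFinset, by rw [← hn₁, Set.ncard_eq_toFinset_card']⟩⟩
  set A : S → Prop := fun s => M₁.Indep (s.1 : Set α) ∧ M₂.Indep (s.1 : Set α) with hA
  set N : ℕ := {B | M₁.IsBase B ∧ M₂.IsBase B}.ncard with hN
  have hAN : Nat.card {s // A s} = N := by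
    rw [hA, card_subtype_eq r (fun B => M₁.Indep B ∧ M₂.Indep B), hN]
    congr 1
    ext B
    constructor
    · rintro ⟨hB, h1, h2⟩
      exact ⟨indep_isBase_of_ncard h1 hB₁ (by omega), indep_isBase_of_ncard h2 hB₂ (by omega)⟩
    · rintro ⟨h1, h2⟩
      exact ⟨(h1.ncard_eq_ncard_of_isBase hB₁).trans hn₁, h1.indep, h2.indep⟩
  set P : ℕ := r * (Fintype.card α - r) + 1 with hP
  have hchoose : {B : Set α | B.ncard = r}.ncard = (Fintype.card α).choose r := by
    have := card_subtype_eq (α := α) r (fun _ => True)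
    simp only [and_true] at this
    rw [← this, ← hcardS, Nat.card_eq_fintype_card]
    exact Fintype.card_congr (Equiv.subtypeUnivEquiv (fun _ => trivial))
  have hdens : Nat.card {s // A s} = 0 ∨
      (Fintype.card S : ℝ) ≤ ((P : ℝ) ^ (c * (c + 1))) * Nat.card {s // A s} := by
    rw [hAN]
    by_cases h0 : N = 0
    · exact Or.inl h0
    · right
      have hex : ∃ B, M₁.IsBase B ∧ M₂.IsBase B := by
        by_contra hcon
        apply h0
        rw [hN]
        have : {B | M₁.IsBase B ∧ M₂.IsBase B} = ∅ := by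
          ext B; simp only [Set.mem_ofPred_eq, Set.mem_empty_iff_false, iff_false]
          exact fun h => hcon ⟨B, h⟩
        rw [this, Set.ncard_empty]
      obtain ⟨Bs, hs₁, hs₂⟩ := hex
      have hr : Bs.ncard = r := (hs₂.ncard_eq_ncard_of_isBase hB₂).trans hn₂
      have h1 := choose_le hE₂ hg₂ hB₂ hn₂
      have h2 := bases_le (M₂ := M₂) hE₁ (fun C hC _ => hg₁ C hC) hs₁ hs₂ hr
      rw [Nat.card_eq_fintype_card] at h1 h2
      rw [hchoose] at h1
      have h3 : (Fintype.card α).choose r ≤ P ^ (c * (c + 1)) * N := by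
        have he : c * (c + 1) = c * (c + 1) / 2 + c * (c + 1) / 2 := by
          have := Nat.even_mul_succ_self c
          obtain ⟨k, hk⟩ := this
          omega
        calc (Fintype.card α).choose r ≤ P ^ (c * (c + 1) / 2) * {B | M₂.IsBase B}.ncard := h1
          _ ≤ P ^ (c * (c + 1) / 2) * (P ^ (c * (c + 1) / 2) * N) := Nat.mul_le_mul_left _ h2
          _ = P ^ (c * (c + 1) / 2 + c * (c + 1) / 2) * N := by rw [pow_add, mul_assoc]
          _ = P ^ (c * (c + 1)) * N := by rw [← he]
      rw [hcardS]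
      exact_mod_cast h3
  have hQ : (0 : ℝ) < (P : ℝ) ^ (c * (c + 1)) := by
    have : (0 : ℝ) < P := by rw [hP]; positivity
    positivity
  have hm' : ((P : ℝ) ^ (c * (c + 1))) ^ 2 * Real.log (2 / δ) / (2 * ε ^ 2) ≤ m := by
    have : ((P : ℝ) ^ (c * (c + 1))) ^ 2 = (P : ℝ) ^ (2 * c * (c + 1)) := by
      rw [← pow_mul]; congr 1; ring
    rw [this]; exact hm
  have key := mc_relative A _ hQ hdens ε δ hε hδ hδ1 m hm'
  rw [hAN, hcardS] at key
  have htot : (Nat.card (Fin m → S) : ℝ) = ((Fintype.card α).choose r : ℝ) ^ m := by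
    rw [Nat.card_eq_fintype_card, Fintype.card_fun, Fintype.card_fin, hcardS]; push_cast; rfl
  rw [htot]
  exact key

end Vale.Agent.Results.P317.GirthMonteCarlo
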