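import Mathlib
import Vale.Agent.Lib.P317.Exchange

namespace Vale.Agent.Results.P317.GirthRatio

open Vale.Agent.Lib.P317

/-- Let `M₁`, `M₂` be matroids of rank `r` on a finite ground set with `n` elements.  Suppose every
circuit of `M₁` has more than `r - c` elements (for `c = 1` this says that `M₁` is paving) and that
`M₁`, `M₂` have a common base.  Then the number of bases of `M₂` is at most
`(r (n - r) + 1) ^ (c (c + 1) / 2)` times the number of common bases. -/
theorem result {α : Type*} [Fintype α] (M₁ M₂ : Matroid α) (r c : ℕ)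
    (hE₁ : M₁.E = Set.univ) (_hE₂ : M₂.E = Set.univ)
    (_hr₁ : M₁.eRank = r) (hr₂ : M₂.eRank = r)
    (hgirth : ∀ C, M₁.IsCircuit C → r < C.ncard + c)
    (hne : ∃ B, M₁.IsBase B ∧ M₂.IsBase B) :
    {B | M₂.IsBase B}.ncard ≤
      (r * (Fintype.card α - r) + 1) ^ (c * (c + 1) / 2) *
        {B | M₁.IsBase B ∧ M₂.IsBase B}.ncard := by
  obtain ⟨Bs, hs₁, hs₂⟩ := hne
  have hr : Bs.ncard = r := by
    have h := hs₂.encard_eq_eRank
    rw [hr₂] at h
    rw [Set.ncard_def, h]
    rfl
  have := bases_le hE₁ (fun C hC _ => hgirth C hC) hs₁ hs₂ hr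
  rwa [Nat.card_eq_fintype_card] at this

end Vale.Agent.Results.P317.GirthRatio
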