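import Mathlib
import Vale.Agent.Lib.P317.Exchange

namespace Vale.Agent.Results.P317.TruncRatio

open Vale.Agent.Lib.P317

/-- Let `M₁`, `M₂` be matroids of rank `r` on a finite ground set with `n` elements.  Suppose every
`M₂`-independent set with at most `r - c` elements is also `M₁`-independent, and that
`M₁`, `M₂` have a common base.  Then the number of bases of `M₂` is at most
`(r (n - r) + 1) ^ (c (c + 1) / 2)` times the number of common bases. -/
theorem result {α : Type*} [Fintype α] (M₁ M₂ : Matroid α) (r c : ℕ)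
    (hE₁ : M₁.E = Set.univ) (_hE₂ : M₂.E = Set.univ)
    (_hr₁ : M₁.eRank = r) (hr₂ : M₂.eRank = r)
    (hdom : ∀ S : Set α, M₂.Indep S → S.ncard + c ≤ r → M₁.Indep S)
    (hne : ∃ B, M₁.IsBase B ∧ M₂.IsBase B) :
    {B | M₂.IsBase B}.ncard ≤
      (r * (Fintype.card α - r) + 1) ^ (c * (c + 1) / 2) *
        {B | M₁.IsBase B ∧ M₂.IsBase B}.ncard := by
  obtain ⟨Bs, hs₁, hs₂⟩ := hne
  have hr : Bs.ncard = r := by
    have h := hs₂.encard_eq_eRank
    rw [hr₂] at h
    rw [Set.ncard_def, h]
    rfl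
  have hg : ∀ C, M₁.IsCircuit C → M₂.Indep C → r < C.ncard + c := by
    intro C hC hCi
    by_contra hcon
    exact hC.dep.not_indep (hdom C hCi (not_lt.1 hcon))
  have := bases_le hE₁ hg hs₁ hs₂ hr
  rwa [Nat.card_eq_fintype_card] at this

end Vale.Agent.Results.P317.TruncRatio
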